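import Vale.Agent.P192.R2.H360.Defs

set_option linter.all false

/-! (E1): extension of a part of a coloring of the line to a coloring of the line all of whose
windows occur near that part. -/

namespace Vale.Agent.P192.R2.H730

open Vale.Agent.P192.R2.H360

variable {A : Type}

theorem win_trans {r u v w : ℤ} {a b c : ℤ → A} (h1 : win r a u b v) (h2 : win r b v c w) :
    win r a u c w := fun t ht => (h1 t ht).trans (h2 t ht)

/-- periodic continuation to the right -/
theorem ext_right (a : ℤ → A) (r x₁ x₂ : ℤ) (hr : 0 ≤ r) (h12 : x₁ < x₂) (hw : win r a x₁ a x₂) :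
    ∃ a' : ℤ → A, (∀ t, t ≤ x₂ + r → a' t = a t) ∧
      ∀ u, x₂ < u → ∃ v, x₁ < v ∧ v ≤ x₂ ∧ win r a' u a v := by
  classical
  obtain ⟨p, hp⟩ : ∃ p, p = x₂ - x₁ := ⟨_, rfl⟩
  have hp0 : 0 < p := by omega
  set φ : ℤ → ℤ := fun t => x₁ + 1 + (t - x₁ - 1) % p with hφ
  have hφ1 : ∀ t, x₁ < t → t ≤ x₂ → φ t = t := by
    intro t h1 h2
    show x₁ + 1 + (t - x₁ - 1) % p = t
    rw [Int.emod_eq_of_lt (by omega) (by omega)]
    ring
  have hφ2 : ∀ t, φ (t - p) = φ t := by
    intro t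
    show x₁ + 1 + (t - p - x₁ - 1) % p = x₁ + 1 + (t - x₁ - 1) % p
    have : t - p - x₁ - 1 = (t - x₁ - 1) + p * (-1) := by ring
    rw [this, Int.add_mul_emod_self_left]
  set a' : ℤ → A := fun t => if t ≤ x₂ then a t else a (φ t) with ha'
  have hle : ∀ t, t ≤ x₂ → a' t = a t := by
    intro t ht
    show (if t ≤ x₂ then a t else a (φ t)) = a t
    rw [if_pos ht]
  have hgt : ∀ t, x₁ < t → a' t = a (φ t) := by
    intro t ht
    by_cases h : t ≤ x₂
    · rw [hle t h, hφ1 t ht h]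
    · show (if t ≤ x₂ then a t else a (φ t)) = a (φ t)
      rw [if_neg h]
  have hB : ∀ t, x₂ - r ≤ t → a' t = a' (t - p) := by
    intro t ht
    by_cases h : t ≤ x₂
    · rw [hle t h, hle (t - p) (by omega)]
      have h3 := hw (t - x₂) (by rw [abs_le]; constructor <;> omega)
      have e1 : x₁ + (t - x₂) = t - p := by omega
      have e2 : x₂ + (t - x₂) = t := by omega
      rw [e1, e2] at h3
      exact h3.symm
    · rw [hgt t (by omega), hgt (t - p) (by omega), hφ2]
  have hC : ∀ n : ℕ, ∀ t, t ≤ x₂ + r → t - x₂ ≤ n → a' t = a t := by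
    intro n
    induction n with
    | zero =>
      intro t _ h
      exact hle t (by push_cast at h; omega)
    | succ n ih =>
      intro t h1 h2
      by_cases h : t ≤ x₂
      · exact hle t h
      · rw [hB t (by omega), ih (t - p) (by omega) (by push_cast at h2; omega)]
        have h3 := hw (t - x₂) (by rw [abs_le]; constructor <;> omega)
        have e1 : x₁ + (t - x₂) = t - p := by omega
        have e2 : x₂ + (t - x₂) = t := by omega
        rw [e1, e2] at h3
        exact h3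
  have hC' : ∀ t, t ≤ x₂ + r → a' t = a t := by
    intro t ht
    exact hC (t - x₂).toNat t ht (by omega)
  refine ⟨a', hC', ?_⟩
  have hD : ∀ n : ℕ, ∀ u, x₂ < u → u - x₂ ≤ n → ∃ v, x₁ < v ∧ v ≤ x₂ ∧ win r a' u a v := by
    intro n
    induction n with
    | zero => intro u h1 h2; push_cast at h2; omega
    | succ n ih =>
      intro u h1 h2
      have hw1 : win r a' u a' (u - p) := by
        intro t ht
        rw [abs_le] at ht
        have e1 : u - p + t = (u + t) - p := by ring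
        rw [e1]
        exact hB (u + t) (by omega)
      by_cases h : u - p ≤ x₂
      · refine ⟨u - p, by omega, h, win_trans hw1 ?_⟩
        intro t ht
        rw [abs_le] at ht
        exact hC' _ (by omega)
      · obtain ⟨v, hv1, hv2, hv3⟩ := ih (u - p) (by omega) (by push_cast at h2; omega)
        exact ⟨v, hv1, hv2, win_trans hw1 hv3⟩
  intro u hu
  exact hD (u - x₂).toNat u hu (by omega)

theorem win_refl' {r u v : ℤ} {a b : ℤ → A} (h : win r a u b v) :
    win r (fun t => a (-t)) (-u) (fun t => b (-t)) (-v) := by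
  intro t ht
  have := h (-t) (by rwa [abs_neg])
  show a (-(-u + t)) = b (-(-v + t))
  have e1 : -(-u + t) = u + -t := by ring
  have e2 : -(-v + t) = v + -t := by ring
  rw [e1, e2, this]

/-- periodic continuation to the left -/
theorem ext_left (a : ℤ → A) (r y₁ y₂ : ℤ) (hr : 0 ≤ r) (h12 : y₂ < y₁) (hw : win r a y₁ a y₂) :
    ∃ a' : ℤ → A, (∀ t, y₂ - r ≤ t → a' t = a t) ∧
      ∀ u, u < y₂ → ∃ v, v < y₁ ∧ y₂ ≤ v ∧ win r a' u a v := by
  obtain ⟨b, hb1, hb2⟩ := ext_right (fun t => a (-t)) r (-y₁) (-y₂) hr (by omega) (win_refl' hw)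
  refine ⟨fun t => b (-t), ?_, ?_⟩
  · intro t ht
    show b (-t) = a t
    rw [hb1 (-t) (by omega), neg_neg]
  · intro u hu
    obtain ⟨v, hv1, hv2, hv3⟩ := hb2 (-u) (by omega)
    refine ⟨-v, by omega, by omega, ?_⟩
    have h := win_refl' hv3
    rw [neg_neg] at h
    simpa only [neg_neg] using h

/-- two equal windows among many places -/
theorem exists_eq_win [Finite A] (r : ℕ) : ∃ Q : ℕ, ∀ (a : ℤ → A) (g : ℕ → ℤ),
    ∃ i j : ℕ, i < j ∧ j ≤ Q ∧ win (r : ℤ) a (g i) a (g j) := by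
  classical
  haveI : Fintype A := Fintype.ofFinite A
  refine ⟨Fintype.card (↥(Finset.Icc (-(r : ℤ)) r) → A), ?_⟩
  intro a g
  set Q := Fintype.card (↥(Finset.Icc (-(r : ℤ)) r) → A) with hQ
  obtain ⟨i, hi, j, hj, hne, heq⟩ := Finset.exists_ne_map_eq_of_card_lt_of_maps_to
    (s := Finset.range (Q + 1)) (t := (Finset.univ : Finset (↥(Finset.Icc (-(r : ℤ)) r) → A)))
    (f := fun i t => a (g i + t.1))
    (by rw [Finset.card_univ, Finset.card_range]; omega) (fun i _ => Finset.mem_univ _)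
  have hwin : ∀ i j, (fun t : ↥(Finset.Icc (-(r : ℤ)) r) => a (g i + t.1)) =
      (fun t => a (g j + t.1)) → win (r : ℤ) a (g i) a (g j) := by
    intro i j h t ht
    exact congrFun h ⟨t, by rw [Finset.mem_Icc]; exact abs_le.mp ht⟩
  rw [Finset.mem_range] at hi hj
  rcases Nat.lt_or_gt_of_ne hne with h | h
  · exact ⟨i, j, h, by omega, hwin i j heq⟩
  · exact ⟨j, i, h, by omega, hwin j i heq.symm⟩

/-- (E1) -/
theorem extend {A : Type} [Finite A] (r D : ℕ) :
    ∃ L : ℕ, D ≤ L ∧ ∀ (a : ℤ → A) (x : ℤ), ∃ a' : ℤ → A,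
      (∀ t, |t - x| ≤ D → a' t = a t) ∧
      ∀ u, ∃ v, |v - x| ≤ L ∧ win (r : ℤ) a' u a v := by
  obtain ⟨Q, hQ⟩ := exists_eq_win (A := A) r
  refine ⟨D + r + 1 + Q, by omega, ?_⟩
  intro a x
  obtain ⟨i, j, hij, hj, hw⟩ := hQ a (fun n => x + D + r + 1 + n)
  obtain ⟨i', j', hij', hj', hw'⟩ := hQ a (fun n => x - D - r - 1 - n)
  obtain ⟨a1, ha1, ha1'⟩ := ext_right a r (x + D + r + 1 + i) (x + D + r + 1 + j)
    (Int.natCast_nonneg _) (by omega) hw
  have hw1 : win (r : ℤ) a1 (x - D - r - 1 - i') a1 (x - D - r - 1 - j') := by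
    intro t ht
    rw [abs_le] at ht
    rw [ha1 _ (by omega), ha1 _ (by omega)]
    exact hw' t (by rw [abs_le]; exact ht)
  obtain ⟨a2, ha2, ha2'⟩ := ext_left a1 r (x - D - r - 1 - i') (x - D - r - 1 - j')
    (Int.natCast_nonneg _) (by omega) hw1
  refine ⟨a2, ?_, ?_⟩
  · intro t ht
    rw [abs_le] at ht
    rw [ha2 t (by omega), ha1 t (by omega)]
  · -- the windows of `a1`
    have h1 : ∀ u, x - D - r - 1 - j' ≤ u → ∃ v, |v - x| ≤ ((D + r + 1 + Q : ℕ) : ℤ) ∧
        win (r : ℤ) a1 u a v := by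
      intro u hu
      by_cases h : u ≤ x + D + r + 1 + j
      · refine ⟨u, by rw [abs_le]; push_cast; constructor <;> omega, ?_⟩
        intro t ht
        rw [abs_le] at ht
        exact ha1 _ (by omega)
      · obtain ⟨v, hv1, hv2, hv3⟩ := ha1' u (by omega)
        exact ⟨v, by rw [abs_le]; push_cast; constructor <;> omega, hv3⟩
    intro u
    by_cases h : x - D - r - 1 - j' ≤ u
    · obtain ⟨v, hv, hv'⟩ := h1 u h
      refine ⟨v, hv, win_trans ?_ hv'⟩
      intro t ht
      rw [abs_le] at ht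
      exact ha2 _ (by omega)
    · obtain ⟨v, hv1, hv2, hv3⟩ := ha2' u (by omega)
      obtain ⟨w, hw1, hw2⟩ := h1 v hv2
      exact ⟨w, hw1, win_trans hv3 hw2⟩

end Vale.Agent.P192.R2.H730
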