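import Vale.Agent.P192.R2.H102.LocalFin

set_option linter.all false

/-! The general local theorem: charts on parts of products. -/

namespace Vale.Agent.P192.R2.H360

/-- chart on the part of the product of `D`, `E` in the square of radius `R` -/
def GChart {G X : Type} [Group G] (S : Set G) (m : ℕ) (R : ℤ) (ρ : G →* Equiv.Perm X)
    (D E : Set ℤ) (π : ℤ × ℤ → X) : Prop :=
  (∀ z z', z.1 ∈ D → z.2 ∈ E → z'.1 ∈ D → z'.2 ∈ E → |z.1| ≤ R → |z.2| ≤ R → |z'.1| ≤ R →
    |z'.2| ≤ R → π z = π z' → z = z') ∧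
  ∀ s, (s ∈ S ∨ s⁻¹ ∈ S) → ∃ (a b : ℤ → Fin m) (f : Fin m → Fin m → ℤ × ℤ),
    (∀ α β, |(f α β).1| ≤ m ∧ |(f α β).2| ≤ m) ∧
    ∀ z, z.1 ∈ D → z.2 ∈ E → |z.1| ≤ R → |z.2| ≤ R →
      z.1 + (f (a z.1) (b z.2)).1 ∈ D ∧ z.2 + (f (a z.1) (b z.2)).2 ∈ E ∧
      ρ s (π z) = π (z.1 + (f (a z.1) (b z.2)).1, z.2 + (f (a z.1) (b z.2)).2)

/-- statement of the local theorem -/
def LocalStmt : Prop := ∀ (G : Type) [Group G] [Group.IsFinitelyPresented G], IsMulTorsion G →
  ∀ (S : Set G), Subgroup.closure S = ⊤ → ∀ m : ℕ,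
    ∃ (R : ℕ) (N : Subgroup G), N.Normal ∧ N.FiniteIndex ∧
      ∀ (X : Type) (ρ : G →* Equiv.Perm X),
      (∀ p : X, ∃ π : ℤ × ℤ → X, π (0, 0) = p ∧ H102.Chart S m (R : ℤ) ρ π) → ∀ g ∈ N, ρ g = 1

theorem local_gen_of (HL : LocalStmt) (G : Type) [Group G] [Group.IsFinitelyPresented G]
    (hG : IsMulTorsion G) (S : Set G) (hS : Subgroup.closure S = ⊤) (m : ℕ) :
    ∃ (R : ℕ) (N : Subgroup G), N.Normal ∧ N.FiniteIndex ∧
      ∀ (X : Type) (ρ : G →* Equiv.Perm X),
      (∀ p : X, ∃ (D E : Set ℤ) (π : ℤ × ℤ → X), (0 : ℤ) ∈ D ∧ (0 : ℤ) ∈ E ∧ π (0, 0) = p ∧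
        GChart S m (R : ℤ) ρ D E π) → ∀ g ∈ N, ρ g = 1 := by
  classical
  obtain ⟨R, N, hN, hN', hmain⟩ := HL G hG S hS (m + 1)
  refine ⟨R, N, hN, hN', ?_⟩
  intro X ρ hρ g hg
  set ρ' : G →* Equiv.Perm (X ⊕ (X × ℤ × ℤ)) :=
    (Equiv.Perm.sumCongrHom X (X × ℤ × ℤ)).comp (MonoidHom.prod ρ 1) with hρ'
  have hl : ∀ g x, ρ' g (Sum.inl x) = Sum.inl (ρ g x) := fun g x => rfl
  have hr : ∀ g y, ρ' g (Sum.inr y) = Sum.inr y := fun g y => rfl
  have hmm : ((m : ℕ) : ℤ) ≤ ((m + 1 : ℕ) : ℤ) := by push_cast; linarith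
  have h0m : (0 : ℤ) ≤ ((m + 1 : ℕ) : ℤ) := Int.natCast_nonneg _
  have key : ∀ q : X ⊕ (X × ℤ × ℤ), ∃ π : ℤ × ℤ → X ⊕ (X × ℤ × ℤ), π (0, 0) = q ∧
      H102.Chart S (m + 1) (R : ℤ) ρ' π := by
    rintro (p | ⟨p, w⟩)
    · obtain ⟨D, E, π, hD, hE, hπ, hinj, hch⟩ := hρ p
      set π' : ℤ × ℤ → X ⊕ (X × ℤ × ℤ) :=
        fun z => if z.1 ∈ D ∧ z.2 ∈ E then Sum.inl (π z) else Sum.inr (p, z) with hπ'
      have hin : ∀ z : ℤ × ℤ, z.1 ∈ D → z.2 ∈ E → π' z = Sum.inl (π z) := by
        intro z h1 h2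
        exact if_pos ⟨h1, h2⟩
      have hout : ∀ z : ℤ × ℤ, ¬ (z.1 ∈ D ∧ z.2 ∈ E) → π' z = Sum.inr (p, z) := by
        intro z h
        exact if_neg h
      refine ⟨π', ?_, ?_, ?_⟩
      · rw [hin (0, 0) hD hE, hπ]
      · intro z z' h1 h2 h3 h4 h
        by_cases hz : z.1 ∈ D ∧ z.2 ∈ E
        · by_cases hz' : z'.1 ∈ D ∧ z'.2 ∈ E
          · rw [hin z hz.1 hz.2, hin z' hz'.1 hz'.2] at h
            exact hinj z z' hz.1 hz.2 hz'.1 hz'.2 h1 h2 h3 h4 (Sum.inl_injective h)
          · rw [hin z hz.1 hz.2, hout z' hz'] at h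
            exact absurd h (by simp)
        · by_cases hz' : z'.1 ∈ D ∧ z'.2 ∈ E
          · rw [hout z hz, hin z' hz'.1 hz'.2] at h
            exact absurd h (by simp)
          · rw [hout z hz, hout z' hz'] at h
            exact (Prod.mk.inj (Sum.inr_injective h)).2
      · intro s hs
        obtain ⟨a, b, f, hf, hfz⟩ := hch s hs
        set a' : ℤ → Fin (m + 1) := fun x => if x ∈ D then (a x).castSucc else Fin.last m with ha'
        set b' : ℤ → Fin (m + 1) := fun x => if x ∈ E then (b x).castSucc else Fin.last m with hb'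
        set f' : Fin (m + 1) → Fin (m + 1) → ℤ × ℤ := fun α β =>
          if h : α.val < m ∧ β.val < m then f ⟨α.val, h.1⟩ ⟨β.val, h.2⟩ else (0, 0) with hf'
        have hf1 : ∀ α β : Fin m, f' α.castSucc β.castSucc = f α β := by
          intro α β
          show (if h : (α.castSucc).val < m ∧ (β.castSucc).val < m then
            f ⟨(α.castSucc).val, h.1⟩ ⟨(β.castSucc).val, h.2⟩ else (0, 0)) = f α β
          rw [dif_pos ⟨α.2, β.2⟩]
          rfl
        refine ⟨a', b', f', ?_, ?_⟩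
        · intro α β
          by_cases h : α.val < m ∧ β.val < m
          · have e : f' α β = f ⟨α.val, h.1⟩ ⟨β.val, h.2⟩ := dif_pos h
            rw [e]
            have := hf ⟨α.val, h.1⟩ ⟨β.val, h.2⟩
            exact ⟨this.1.trans hmm, this.2.trans hmm⟩
          · have e : f' α β = (0, 0) := dif_neg h
            rw [e]
            constructor
            · show |(0 : ℤ)| ≤ _
              rw [abs_zero]
              exact h0m
            · show |(0 : ℤ)| ≤ _
              rw [abs_zero]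
              exact h0m
        · intro z h1 h2
          by_cases hz : z.1 ∈ D ∧ z.2 ∈ E
          · have ea : a' z.1 = (a z.1).castSucc := if_pos hz.1
            have eb : b' z.2 = (b z.2).castSucc := if_pos hz.2
            obtain ⟨k1, k2, k3⟩ := hfz z hz.1 hz.2 h1 h2
            rw [ea, eb, hf1, hin z hz.1 hz.2, hl, k3, hin _ k1 k2]
          · have e : f' (a' z.1) (b' z.2) = (0, 0) := by
              apply dif_neg
              rintro ⟨h3, h4⟩
              apply hz
              constructor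
              · by_contra hc
                have ea : a' z.1 = Fin.last m := if_neg hc
                rw [ea] at h3
                exact absurd h3 (by simp)
              · by_contra hc
                have eb : b' z.2 = Fin.last m := if_neg hc
                rw [eb] at h4
                exact absurd h4 (by simp)
            rw [e]
            show ρ' s (π' z) = π' (z.1 + 0, z.2 + 0)
            rw [add_zero, add_zero, hout z hz, hr]
    · refine ⟨fun z => Sum.inr (p, (w.1 + z.1, w.2 + z.2)), ?_, ?_, ?_⟩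
      · show Sum.inr (p, (w.1 + 0, w.2 + 0)) = Sum.inr (p, w)
        rw [add_zero, add_zero]
      · intro z z' _ _ _ _ h
        have h5 := (Prod.mk.inj (Sum.inr_injective h)).2
        have h6 := Prod.mk.inj h5
        exact Prod.ext (by linarith [h6.1]) (by linarith [h6.2])
      · intro s hs
        refine ⟨fun _ => 0, fun _ => 0, fun _ _ => (0, 0), ?_, ?_⟩
        · intro α β
          constructor
          · show |(0 : ℤ)| ≤ _
            rw [abs_zero]
            exact h0m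
          · show |(0 : ℤ)| ≤ _
            rw [abs_zero]
            exact h0m
        · intro z _ _
          show ρ' s (Sum.inr (p, (w.1 + z.1, w.2 + z.2))) =
            Sum.inr (p, (w.1 + (z.1 + 0), w.2 + (z.2 + 0)))
          rw [hr, add_zero, add_zero]
  have h1 := hmain _ ρ' key g hg
  ext x
  have h2 : ρ' g (Sum.inl x) = Sum.inl x := by rw [h1]; rfl
  rw [hl] at h2
  exact Sum.inl_injective h2

theorem localStmt : LocalStmt := fun G _ _ hG S hS m => H102.local_uniform G hG S hS m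

/-- **The general local theorem.** -/
theorem local_gen (G : Type) [Group G] [Group.IsFinitelyPresented G]
    (hG : IsMulTorsion G) (S : Set G) (hS : Subgroup.closure S = ⊤) (m : ℕ) :
    ∃ (R : ℕ) (N : Subgroup G), N.Normal ∧ N.FiniteIndex ∧
      ∀ (X : Type) (ρ : G →* Equiv.Perm X),
      (∀ p : X, ∃ (D E : Set ℤ) (π : ℤ × ℤ → X), (0 : ℤ) ∈ D ∧ (0 : ℤ) ∈ E ∧ π (0, 0) = p ∧
        GChart S m (R : ℤ) ρ D E π) → ∀ g ∈ N, ρ g = 1 :=
  local_gen_of localStmt G hG S hS m

end Vale.Agent.P192.R2.H360
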